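import Mathlib

namespace Vale.Agent.P034

open Finset

variable {X : Type} [Fintype X] [DecidableEq X]

/-- `F` is `p`-small: some cover `G` of `F` has cost `∑_{S ∈ G} p^{|S|} ≤ 1/2`. -/
def IsSmall (F : Finset (Finset X)) (p : ℝ) : Prop :=
  ∃ G : Finset (Finset X), (∀ H ∈ F, ∃ S ∈ G, S ⊆ H) ∧ ∑ S ∈ G, p ^ S.card ≤ 1 / 2

/-- Some fractional cover `g : 2^X → [0,1]` of `F` has cost `w(g,p) ≤ 1/2`. -/
def IsFracSmall (F : Finset (Finset X)) (p : ℝ) : Prop :=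
  ∃ g : Finset X → ℝ, (∀ S, 0 ≤ g S ∧ g S ≤ 1) ∧ (∀ H ∈ F, 1 ≤ ∑ S ∈ H.powerset, g S) ∧
    ∑ S : Finset X, g S * p ^ S.card ≤ 1 / 2

/-- The expectation threshold `q(F)`. -/
noncomputable def qInt (F : Finset (Finset X)) : ℝ :=
  sSup {p : ℝ | 0 ≤ p ∧ p ≤ 1 ∧ IsSmall F p}

/-- The fractional expectation threshold `q_f(F)`. -/
noncomputable def qFrac (F : Finset (Finset X)) : ℝ :=
  sSup {p : ℝ | 0 ≤ p ∧ p ≤ 1 ∧ IsFracSmall F p}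

end Vale.Agent.P034
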