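import Vale.Agent.P034.Process
import Vale.Agent.P034.Defs

/-! The counting argument: the multi-level selector bound. -/

namespace Vale.Agent.P034

open Finset

variable {X : Type} [Fintype X] [DecidableEq X]

def IsMinT (F : Finset (Finset X)) (L : Finset X → X → ℝ) (J : ℕ) (a : X → ℕ) (T : Finset X) :
    Prop :=
  T ∈ F ∧ ∀ T' ∈ F, (∀ i ≤ J, UU (L T') a i ⊆ UU (L T) a i) → ∀ i ≤ J, UU (L T') a i = UU (L T) a i

lemma exists_min {F : Finset (Finset X)} {L : Finset X → X → ℝ} (hL : ∀ T x, 0 ≤ L T x)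
    (hs : ∀ T x, 0 < L T x → x ∈ T) (J : ℕ) (a : X → ℕ) {S : Finset X} (hS : S ∈ F) :
    ∃ T, IsMinT F L J a T ∧ UU (L T) a J ⊆ S := by
  classical
  obtain ⟨T, hT, hmin⟩ := exists_min_image (F.filter (fun T => UU (L T) a J ⊆ S))
    (fun T => ∑ i ∈ range (J + 1), (UU (L T) a i).card)
    ⟨S, mem_filter.2 ⟨hS, fun x hx => hs _ _ (UU_pos (hL S) hx)⟩⟩
  rw [mem_filter] at hT
  refine ⟨T, ⟨hT.1, fun T' hT' hsub i hi => ?_⟩, hT.2⟩
  have h1 := hmin T' (mem_filter.2 ⟨hT', (hsub J le_rfl).trans hT.2⟩)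
  apply eq_of_subset_of_card_le (hsub i hi)
  by_contra hc
  have : ∑ i ∈ range (J + 1), (UU (L T') a i).card < ∑ i ∈ range (J + 1), (UU (L T) a i).card :=
    sum_lt_sum (fun j hj => card_le_card (hsub j (Nat.lt_succ_iff.1 (mem_range.1 hj))))
      ⟨i, mem_range.2 (Nat.lt_succ_of_le hi), not_le.1 hc⟩
  omega

def Adm (F : Finset (Finset X)) (L : Finset X → X → ℝ) (J : ℕ) (b : X → ℕ) (U : Finset X) :
    Prop :=
  ∃ a T, IsMinT F L J a T ∧ md (L T) a J = b ∧ UU (L T) a J = U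

def ty (J : ℕ) (b : X → ℕ) (U : Finset X) : Fin J → ℕ :=
  fun i => (U.filter (fun x => b x = i)).card

omit [Fintype X] [DecidableEq X] in
lemma prod_ty {J : ℕ} {b : X → ℕ} {U : Finset X} (h : ∀ x ∈ U, b x < J) (f : ℕ → ℝ) :
    ∏ x ∈ U, f (b x) = ∏ i : Fin J, f i ^ ty J b U i := by
  rw [← prod_fiberwise_of_maps_to' (t := range J) (fun x hx => mem_range.2 (h x hx)) f,
    prod_range]
  simp [ty]

omit [Fintype X] [DecidableEq X] in
lemma card_ty {J : ℕ} {b : X → ℕ} {U V : Finset X} (hU : ∀ x ∈ U, b x < J)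
    (hV : ∀ x ∈ V, b x < J) (h : ty J b U = ty J b V) (i : ℕ) :
    (U.filter (fun x => b x ≤ i)).card = (V.filter (fun x => b x ≤ i)).card := by
  have key : ∀ W : Finset X, (∀ x ∈ W, b x < J) → (W.filter (fun x => b x ≤ i)).card =
      ∑ j : Fin J, if (j : ℕ) ≤ i then ty J b W j else 0 := by
    intro W hW
    rw [card_eq_sum_card_fiberwise (f := b) (t := range J)
      (fun x hx => mem_coe.2 (mem_range.2 (hW x (mem_filter.1 (mem_coe.1 hx)).1))), sum_range]
    apply sum_congr rfl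
    intro j _
    rw [filter_filter]
    split_ifs with hj
    · unfold ty
      congr 1
      apply filter_congr
      intro x _
      constructor
      · exact fun h => h.2
      · exact fun h => ⟨h ▸ hj, h⟩
    · rw [card_eq_zero, filter_eq_empty_iff]
      rintro x _ ⟨h1, h2⟩
      exact hj (h2 ▸ h1)
  rw [key U hU, key V hV, h]

lemma Adm.lt {F : Finset (Finset X)} {L : Finset X → X → ℝ} (hL : ∀ T x, 0 ≤ L T x) {J : ℕ}
    {b : X → ℕ} {U : Finset X} (h : Adm F L J b U) : ∀ x ∈ U, b x < J := by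
  obtain ⟨a, T, -, rfl, rfl⟩ := h
  exact fun x hx => md_lt (hL T) hx

lemma exists_W {F : Finset (Finset X)} {L : Finset X → X → ℝ} (hL : ∀ T x, 0 ≤ L T x) {J : ℕ}
    {b : X → ℕ} {U₀ : Finset X} (h₀ : Adm F L J b U₀) :
    ∃ W : Finset X, ∑ x ∈ W, (1 / 4 : ℝ) ^ b x ≤ 2 * U₀.card ∧
      ∀ U, Adm F L J b U → ty J b U = ty J b U₀ → U ⊆ W := by
  have hlt₀ := h₀.lt hL
  obtain ⟨a₀, T₀, hT₀, hb₀, hU₀⟩ := h₀
  refine ⟨univ.filter (fun x => b x < J ∧ x ∈ AA (L T₀) (eps (L T₀) a₀ (b x + 1))), ?_, ?_⟩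
  · rw [← sum_fiberwise_of_maps_to (t := range J) (g := b)
      (fun x hx => mem_range.2 (mem_filter.1 hx).2.1)]
    calc _ ≤ ∑ i ∈ range J, (1 / 2 : ℝ) ^ i * U₀.card := by
          apply sum_le_sum
          intro i hi
          have h1 := card_AA_succ (hL T₀) a₀ i
          have h2 : (UU (L T₀) a₀ (i + 1)).card ≤ U₀.card :=
            card_le_card (hU₀ ▸ UU_mono (hL T₀) a₀ (mem_range.1 hi))
          have h3 : ((AA (L T₀) (eps (L T₀) a₀ (i + 1))).card : ℝ) ≤ 2 ^ i * U₀.card := by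
            exact_mod_cast h1.trans (Nat.mul_le_mul_left _ h2)
          calc _ ≤ ∑ x ∈ AA (L T₀) (eps (L T₀) a₀ (i + 1)), (1 / 4 : ℝ) ^ i := by
                rw [sum_congr rfl (g := fun _ => (1 / 4 : ℝ) ^ i)
                  (fun x hx => by rw [(mem_filter.1 hx).2])]
                apply sum_le_sum_of_subset_of_nonneg
                · intro x hx
                  rw [mem_filter, mem_filter] at hx
                  rw [← hx.2]; exact hx.1.2.2
                · intros; positivity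
            _ = (1 / 4 : ℝ) ^ i * (AA (L T₀) (eps (L T₀) a₀ (i + 1))).card := by
                simp [mul_comm]
            _ ≤ (1 / 4 : ℝ) ^ i * (2 ^ i * U₀.card) := by gcongr
            _ = _ := by rw [← mul_assoc, ← mul_pow]; norm_num
      _ = (∑ i ∈ range J, (1 / 2 : ℝ) ^ i) * U₀.card := by rw [sum_mul]
      _ ≤ _ := by
          gcongr
          exact sum_geometric_two_le J
  · intro U hU hty
    have hlt := hU.lt hL
    obtain ⟨a, T, hT, hb, hUU⟩ := hU
    have hcmp := compare (hL T) (hL T₀) (a := a) (b := a₀) (J := J) (hb.trans hb₀.symm) (by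
      intro i hi
      rw [UU_succ_eq (hL T) hi, UU_succ_eq (hL T₀) hi, hb, hb₀, hUU, hU₀]
      exact (card_ty hlt hlt₀ hty i).le)
    have heq := hT.2 T₀ hT₀.1 (fun i hi => (hcmp i hi).2)
    intro x hx
    have h1 := hlt x hx
    rw [mem_filter]
    refine ⟨mem_univ _, h1, ?_⟩
    have h2 : x ∈ UU (L T) a (b x + 1) := by
      rw [← hUU] at hx
      exact (md_le_iff (hL T) hx _).1 (by rw [hb])
    rw [← heq _ h1] at h2
    exact mem_AA.2 ((hcmp _ h1).1.trans_lt (mem_AA.1 (UU_sub_AA _ _ _ h2)))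

lemma exp_two_le : Real.exp 2 ≤ 8 := by
  have h := Real.exp_one_lt_d9
  have h2 : Real.exp 2 = Real.exp 1 * Real.exp 1 := by rw [← Real.exp_add]; norm_num
  have h3 := Real.exp_pos 1
  nlinarith

open Classical in
lemma fibre_le {F : Finset (Finset X)} {L : Finset X → X → ℝ} (hL : ∀ T x, 0 ≤ L T x) {J : ℕ}
    (b : X → ℕ) (D : Finset (Finset X)) (hD : ∀ U ∈ D, Adm F L J b U) (n : Fin J → ℕ) :
    ∑ U ∈ D.filter (fun U => ty J b U = n), ∏ x ∈ U, ((1 / 8 : ℝ) ^ b x / 200) ≤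
      ∏ i : Fin J, ((1 / 2 : ℝ) ^ (i : ℕ) / 25) ^ n i := by
  rcases (D.filter (fun U => ty J b U = n)).eq_empty_or_nonempty with h | ⟨U₀, hU₀⟩
  · rw [h, sum_empty]; positivity
  rw [mem_filter] at hU₀
  obtain ⟨W, hW1, hW2⟩ := exists_W hL (hD _ hU₀.1)
  set R : ℝ := ∏ i : Fin J, ((1 / 2 : ℝ) ^ (i : ℕ) / 25) ^ n i with hR
  have hR0 : 0 ≤ R := by positivity
  have h1 : ∀ U ∈ D.filter (fun U => ty J b U = n), ∏ x ∈ U, ((1 / 8 : ℝ) ^ b x / 200) =
      (R * (1 / 8) ^ U₀.card) * ∏ x ∈ U, (1 / 4 : ℝ) ^ b x := by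
    intro U hU
    rw [mem_filter] at hU
    have hlt := (hD _ hU.1).lt hL
    have hlt₀ := (hD _ hU₀.1).lt hL
    have hc : U.card = U₀.card := by
      have := card_ty hlt hlt₀ (hU.2.trans hU₀.2.symm) J
      rwa [filter_true_of_mem (fun x hx => (hlt x hx).le),
        filter_true_of_mem (fun x hx => (hlt₀ x hx).le)] at this
    have h2 := prod_ty hlt (fun i => (1 / 2 : ℝ) ^ i / 25)
    rw [hU.2] at h2
    rw [hR, ← h2, ← hc, ← prod_const, ← prod_mul_distrib, ← prod_mul_distrib]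
    apply prod_congr rfl
    intro x _
    have : (1 / 8 : ℝ) ^ b x = (1 / 2) ^ b x * (1 / 4) ^ b x := by rw [← mul_pow]; norm_num
    rw [this]; ring
  rw [sum_congr rfl h1, ← mul_sum]
  have h3 : ∑ U ∈ D.filter (fun U => ty J b U = n), ∏ x ∈ U, (1 / 4 : ℝ) ^ b x ≤
      8 ^ U₀.card := by
    calc _ ≤ ∑ U ∈ W.powerset, ∏ x ∈ U, (1 / 4 : ℝ) ^ b x := by
          apply sum_le_sum_of_subset_of_nonneg
          · intro U hU
            rw [mem_filter] at hU
            exact mem_powerset.2 (hW2 U (hD _ hU.1) (hU.2.trans hU₀.2.symm))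
          · intros; positivity
      _ = ∏ x ∈ W, (1 + (1 / 4 : ℝ) ^ b x) := (prod_one_add W).symm
      _ ≤ Real.exp (∑ x ∈ W, (1 / 4 : ℝ) ^ b x) :=
          Real.prod_one_add_le_exp_sum W (fun x => by positivity)
      _ ≤ Real.exp (U₀.card * 2) := Real.exp_le_exp.2 (by linarith)
      _ = Real.exp 2 ^ U₀.card := Real.exp_nat_mul 2 _
      _ ≤ 8 ^ U₀.card := pow_le_pow_left₀ (Real.exp_pos 2).le exp_two_le _
  calc _ ≤ (R * (1 / 8) ^ U₀.card) * 8 ^ U₀.card := by gcongr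
    _ = R := by rw [mul_assoc, ← mul_pow]; norm_num

lemma types_le (J N : ℕ) :
    ∑ n ∈ (Fintype.piFinset (fun _ : Fin J => range (N + 1))).erase 0,
      ∏ i : Fin J, ((1 / 2 : ℝ) ^ (i : ℕ) / 25) ^ n i ≤ 1 / 5 := by
  have h0 : (0 : Fin J → ℕ) ∈ Fintype.piFinset (fun _ : Fin J => range (N + 1)) := by simp
  have h1 := add_sum_erase _ (fun n : Fin J → ℕ => ∏ i : Fin J, ((1 / 2 : ℝ) ^ (i : ℕ) / 25) ^ n i)
    h0
  rw [← prod_univ_sum (fun _ : Fin J => range (N + 1))
    (fun i k => ((1 / 2 : ℝ) ^ (i : ℕ) / 25) ^ k)] at h1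
  simp only [Pi.zero_apply, pow_zero, prod_const_one] at h1
  have h2 : ∏ i : Fin J, ∑ k ∈ range (N + 1), ((1 / 2 : ℝ) ^ (i : ℕ) / 25) ^ k ≤
      ∏ i : Fin J, (1 + 2 * ((1 / 2 : ℝ) ^ (i : ℕ) / 25)) := by
    apply prod_le_prod
    · intros; positivity
    · intro i _
      set r : ℝ := (1 / 2 : ℝ) ^ (i : ℕ) / 25 with hr
      have hr0 : 0 < r := by positivity
      have hr1 : r ≤ 1 / 25 := by
        have : (1 / 2 : ℝ) ^ (i : ℕ) ≤ 1 := pow_le_one₀ (by norm_num) (by norm_num)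
        rw [hr]; linarith
      have h3 := mul_neg_geom_sum r (N + 1)
      have h4 : 0 ≤ r ^ (N + 1) := by positivity
      by_contra hc
      push Not at hc
      nlinarith
  have h3 := Real.prod_one_add_le_exp_sum (univ : Finset (Fin J))
    (f := fun i => 2 * ((1 / 2 : ℝ) ^ (i : ℕ) / 25)) (fun i => by positivity)
  have h4 : ∑ i : Fin J, 2 * ((1 / 2 : ℝ) ^ (i : ℕ) / 25) ≤ 4 / 25 := by
    have := sum_geometric_two_le J
    rw [sum_range] at this
    rw [← mul_sum, ← sum_div]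
    linarith
  have h5 : Real.exp (4 / 25) ≤ 1 / (1 - 4 / 25) :=
    Real.exp_bound_div_one_sub_of_interval (by norm_num) (by norm_num)
  have h6 := Real.exp_le_exp.2 h4
  norm_num at h5
  linarith

lemma adm_sum_le {F : Finset (Finset X)} {L : Finset X → X → ℝ} (hL : ∀ T x, 0 ≤ L T x) {J : ℕ}
    (b : X → ℕ) (D : Finset (Finset X)) (hD : ∀ U ∈ D, Adm F L J b U) (hne : ∀ U ∈ D, U ≠ ∅) :
    ∑ U ∈ D, ∏ x ∈ U, ((1 / 8 : ℝ) ^ b x / 200) ≤ 1 / 5 := by
  classical
  rw [← sum_fiberwise_of_maps_to (g := ty J b)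
    (t := (Fintype.piFinset (fun _ : Fin J => range (Fintype.card X + 1))).erase 0)]
  · exact (sum_le_sum (fun n _ => fibre_le hL b D hD n)).trans (types_le J _)
  · intro U hU
    rw [mem_erase]
    constructor
    · obtain ⟨x, hx⟩ := nonempty_iff_ne_empty.2 (hne U hU)
      intro h
      have h1 := congrFun h ⟨b x, (hD U hU).lt hL x hx⟩
      simp only [ty, Pi.zero_apply, card_eq_zero, filter_eq_empty_iff] at h1
      exact h1 hx rfl
    · rw [Fintype.mem_piFinset]
      intro i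
      exact mem_range.2 (Nat.lt_succ_of_le (card_le_univ _))

/-- the labelings -/
def Om (X : Type) [Fintype X] [DecidableEq X] (J : ℕ) : Finset (X → ℕ) :=
  Fintype.piFinset (fun _ : X => range (J + 1))

lemma mem_Om {J : ℕ} {a : X → ℕ} : a ∈ Om X J ↔ ∀ x, a x ≤ J := by
  simp [Om]

lemma fibre_prob {J : ℕ} {π : ℕ → ℝ} (h0 : ∀ i, 0 ≤ π i) (h1 : ∑ i ∈ range (J + 1), π i = 1)
    (b : X → ℕ) (U : Finset X) (E : Finset (X → ℕ)) (hE : E ⊆ Om X J)
    (hE2 : ∀ a ∈ E, ∀ x ∉ U, a x = b x) :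
    ∑ a ∈ E, ∏ x, π (a x) ≤ ∏ x, if x ∈ U then 1 else π (b x) := by
  calc ∑ a ∈ E, ∏ x, π (a x)
      ≤ ∑ a ∈ Fintype.piFinset (fun x => if x ∈ U then range (J + 1) else {b x}), ∏ x, π (a x) := by
        apply sum_le_sum_of_subset_of_nonneg
        · intro a ha
          rw [Fintype.mem_piFinset]
          intro x
          split_ifs with hx
          · exact mem_range.2 (Nat.lt_succ_of_le (mem_Om.1 (hE ha) x))
          · exact mem_singleton.2 (hE2 a ha x hx)
        · intro a _ _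
          exact prod_nonneg (fun x _ => h0 _)
    _ = ∏ x, ∑ i ∈ (if x ∈ U then range (J + 1) else {b x}), π i :=
        (prod_univ_sum _ (fun _ i => π i)).symm
    _ = _ := by
        apply prod_congr rfl
        intro x _
        split_ifs
        · exact h1
        · exact sum_singleton _ _

lemma total_prob {J : ℕ} {π : ℕ → ℝ} (h1 : ∑ i ∈ range (J + 1), π i = 1) :
    ∑ a ∈ Om X J, ∏ x, π (a x) = 1 := by
  unfold Om
  rw [← prod_univ_sum (fun _ : X => range (J + 1)) (fun _ i => π i)]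
  simp [h1]

open Classical in
theorem bad_le {F : Finset (Finset X)} {L : Finset X → X → ℝ} (hL : ∀ T x, 0 ≤ L T x)
    (hs : ∀ T x, 0 < L T x → x ∈ T) {J : ℕ} {π : ℕ → ℝ} {q : ℝ} (hq : 0 ≤ q) (h0 : ∀ i, 0 ≤ π i)
    (h1 : ∑ i ∈ range (J + 1), π i = 1) (h2 : ∀ i < J, π i = 8 ^ i * q)
    (hF : ¬ IsSmall F (q / 200)) :
    ∑ a ∈ (Om X J).filter (fun a => ∀ T ∈ F, UU (L T) a J ≠ ∅), ∏ x, π (a x) ≤ 2 / 5 := by
  set P : (X → ℕ) → ℝ := fun a => ∏ x, π (a x) with hP
  have hP0 : ∀ a, 0 ≤ P a := fun a => prod_nonneg (fun x _ => h0 _)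
  set Prof : (X → ℕ) → Finset ((X → ℕ) × Finset X) := fun a =>
    (F.filter (IsMinT F L J a)).image (fun T => (md (L T) a J, UU (L T) a J)) with hProf
  set Bad := (Om X J).filter (fun a => ∀ T ∈ F, UU (L T) a J ≠ ∅) with hBad
  have hcost : ∀ a, 1 / 2 ≤ ∑ z ∈ Prof a, (q / 200) ^ z.2.card := by
    intro a
    by_contra hc
    apply hF
    refine ⟨(Prof a).image Prod.snd, ?_, ?_⟩
    · intro S hS
      obtain ⟨T, hT, hTS⟩ := exists_min hL hs J a hS
      exact ⟨_, mem_image_of_mem _ (mem_image_of_mem _ (mem_filter.2 ⟨hT.1, hT⟩)), hTS⟩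
    · exact (sum_image_le_of_nonneg (fun _ _ => by positivity)).trans (not_le.1 hc).le
  set D : Finset ((X → ℕ) × Finset X) := Bad.biUnion Prof with hD
  have hDadm : ∀ z ∈ D, z.1 ∈ Om X J ∧ Adm F L J z.1 z.2 ∧ z.2 ≠ ∅ := by
    intro z hz
    obtain ⟨a, ha, hz⟩ := mem_biUnion.1 hz
    obtain ⟨T, hT, rfl⟩ := mem_image.1 hz
    rw [mem_filter] at hT ha
    refine ⟨mem_Om.2 (fun x => ?_), ⟨a, T, hT.2, rfl, rfl⟩, ha.2 T hT.1⟩
    by_cases hx : x ∈ UU (L T) a J
    · exact (md_lt (hL T) hx).le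
    · show md (L T) a J x ≤ J
      rw [md_of_notMem hx]; exact mem_Om.1 ha.1 x
  have key : ∑ a ∈ Bad, P a * ∑ z ∈ Prof a, (q / 200) ^ z.2.card ≤ 1 / 5 := by
    calc ∑ a ∈ Bad, P a * ∑ z ∈ Prof a, (q / 200) ^ z.2.card
        = ∑ a ∈ Bad, ∑ z ∈ D.filter (fun z => z ∈ Prof a), (q / 200) ^ z.2.card * P a := by
          apply sum_congr rfl
          intro a ha
          rw [mul_comm, sum_mul]
          apply sum_congr _ (fun _ _ => rfl)
          ext z
          rw [mem_filter]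
          exact ⟨fun h => ⟨mem_biUnion.2 ⟨a, ha, h⟩, h⟩, fun h => h.2⟩
      _ = ∑ z ∈ D, (q / 200) ^ z.2.card * ∑ a ∈ Bad.filter (fun a => z ∈ Prof a), P a := by
          simp only [sum_filter, mul_sum]
          rw [sum_comm]
          apply sum_congr rfl
          intro z _
          apply sum_congr rfl
          intro a _
          split_ifs <;> simp
      _ ≤ ∑ z ∈ D, P z.1 * ∏ x ∈ z.2, ((1 / 8 : ℝ) ^ z.1 x / 200) := by
          apply sum_le_sum
          intro z hz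
          obtain ⟨hz1, hz2, hz3⟩ := hDadm z hz
          have h3 := fibre_prob h0 h1 z.1 z.2 (Bad.filter (fun a => z ∈ Prof a))
            (fun a ha => (mem_filter.1 (mem_filter.1 ha).1).1) (by
              intro a ha x hx
              obtain ⟨T, -, rfl⟩ := mem_image.1 (mem_filter.1 ha).2
              exact (md_of_notMem hx).symm)
          refine (mul_le_mul_of_nonneg_left h3 (by positivity)).trans (le_of_eq ?_)
          have h4 : (q / 200) ^ z.2.card = ∏ x, if x ∈ z.2 then q / 200 else 1 := by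
            rw [prod_ite_mem, univ_inter, prod_const]
          have h5 : ∏ x ∈ z.2, ((1 / 8 : ℝ) ^ z.1 x / 200) =
              ∏ x, if x ∈ z.2 then (1 / 8 : ℝ) ^ z.1 x / 200 else 1 := by
            rw [prod_ite_mem]; simp
          rw [h4, h5, hP]
          simp only
          rw [← prod_mul_distrib, ← prod_mul_distrib]
          apply prod_congr rfl
          intro x _
          split_ifs with hx
          · rw [h2 _ (hz2.lt hL x hx)]
            have : (8 : ℝ) ^ z.1 x * (1 / 8) ^ z.1 x = 1 := by rw [← mul_pow]; norm_num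
            linear_combination (-q / 200) * this
          · ring
      _ = ∑ b ∈ Om X J, ∑ z ∈ D.filter (fun z => z.1 = b),
            P z.1 * ∏ x ∈ z.2, ((1 / 8 : ℝ) ^ z.1 x / 200) :=
          (sum_fiberwise_of_maps_to (fun z hz => (hDadm z hz).1) _).symm
      _ ≤ ∑ b ∈ Om X J, P b * (1 / 5) := by
          apply sum_le_sum
          intro b _
          have h3 := adm_sum_le hL b ((D.filter (fun z => z.1 = b)).image Prod.snd) (J := J)
            (F := F) (by
              intro U hU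
              obtain ⟨z, hz, rfl⟩ := mem_image.1 hU
              rw [mem_filter] at hz
              rw [← hz.2]; exact (hDadm z hz.1).2.1) (by
              intro U hU
              obtain ⟨z, hz, rfl⟩ := mem_image.1 hU
              exact (hDadm z (mem_filter.1 hz).1).2.2)
          rw [sum_image (by
            intro z hz z' hz' h
            exact Prod.ext ((mem_filter.1 hz).2.trans (mem_filter.1 hz').2.symm) h)] at h3
          refine le_trans (le_of_eq ?_) (mul_le_mul_of_nonneg_left h3 (hP0 b))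
          rw [mul_sum]
          apply sum_congr rfl
          intro z hz
          rw [(mem_filter.1 hz).2]
      _ = 1 / 5 := by rw [← sum_mul, total_prob h1, one_mul]
  have h3 : ∑ a ∈ Bad, P a * (1 / 2) ≤ 1 / 5 :=
    (sum_le_sum (fun a _ => mul_le_mul_of_nonneg_left (hcost a) (hP0 a))).trans key
  rw [← sum_mul] at h3
  linarith

end Vale.Agent.P034
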