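import Vale.Agent.P034.Count

/-! From a fractional cover to an integral cover. -/

namespace Vale.Agent.P034

open Finset

variable {X : Type} [Fintype X] [DecidableEq X]

/-- label distribution -/
noncomputable def piL (J : ℕ) (i : ℕ) : ℝ :=
  if i < J then 8 ^ i * (1 / 8) ^ J else 1 - ∑ k ∈ range J, (8 : ℝ) ^ k * (1 / 8) ^ J

lemma sum_head_le (J : ℕ) : ∑ k ∈ range J, (8 : ℝ) ^ k * (1 / 8) ^ J ≤ 1 := by
  rw [← sum_mul]
  have h1 : ∑ k ∈ range J, (8 : ℝ) ^ k ≤ 8 ^ J := by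
    induction J with
    | zero => simp
    | succ J ih =>
      rw [sum_range_succ, pow_succ]
      have : (0 : ℝ) ≤ 8 ^ J := by positivity
      linarith
  calc _ ≤ (8 : ℝ) ^ J * (1 / 8) ^ J := by gcongr
    _ = 1 := by rw [← mul_pow]; norm_num

lemma piL_nonneg (J i : ℕ) : 0 ≤ piL J i := by
  unfold piL
  split_ifs
  · positivity
  · linarith [sum_head_le J]

lemma piL_sum (J : ℕ) : ∑ i ∈ range (J + 1), piL J i = 1 := by
  rw [sum_range_succ, sum_congr rfl (g := fun k => (8 : ℝ) ^ k * (1 / 8) ^ J)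
    (fun i hi => by unfold piL; rw [if_pos (mem_range.1 hi)])]
  unfold piL
  rw [if_neg (lt_irrefl J)]
  ring

lemma piL_moment (J : ℕ) : ∑ i ∈ range (J + 1), piL J i * (1 / 16) ^ i ≤ 3 * (1 / 8) ^ J := by
  rw [sum_range_succ, sum_congr rfl (g := fun k => (1 / 2 : ℝ) ^ k * (1 / 8) ^ J) (fun i hi => by
    unfold piL
    rw [if_pos (mem_range.1 hi)]
    have : (1 / 2 : ℝ) ^ i = 8 ^ i * (1 / 16) ^ i := by rw [← mul_pow]; norm_num
    rw [this]; ring), ← sum_mul]
  have h1 := sum_geometric_two_le J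
  have h2 : piL J J ≤ 1 := by
    unfold piL
    rw [if_neg (lt_irrefl J)]
    have : 0 ≤ ∑ k ∈ range J, (8 : ℝ) ^ k * (1 / 8) ^ J := by positivity
    linarith
  have h3 : (1 / 16 : ℝ) ^ J ≤ (1 / 8) ^ J := pow_le_pow_left₀ (by norm_num) (by norm_num) J
  have h4 : (0 : ℝ) ≤ (1 / 16) ^ J := by positivity
  have h5 : (0 : ℝ) ≤ (1 / 8) ^ J := by positivity
  nlinarith

lemma pow_ge (s t : ℕ) (hs : 1 ≤ s) :
    4 * (1 + 2 * (s : ℝ) - t) ≤ 1024 ^ s * (1 / 16) ^ t := by
  rcases le_or_gt t (2 * s) with h | h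
  · obtain ⟨k, hk⟩ := Nat.exists_eq_add_of_le h
    have h1 : (1024 : ℝ) ^ s = 4 ^ s * 16 ^ (t + k) := by
      rw [← hk, pow_mul, ← mul_pow]; norm_num
    have h2 : (16 : ℝ) ^ t * (1 / 16) ^ t = 1 := by rw [← mul_pow]; norm_num
    have h3 : (1024 : ℝ) ^ s * (1 / 16) ^ t = 4 ^ s * 16 ^ k := by
      rw [h1, pow_add]
      linear_combination (4 ^ s * 16 ^ k) * h2
    have h4 : (4 : ℝ) ≤ 4 ^ s := le_self_pow₀ (by norm_num) (by omega)
    have h5 : 1 + (k : ℝ) * 15 ≤ (1 + 15) ^ k := one_add_mul_le_pow (by norm_num) k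
    have h6 : 2 * (s : ℝ) = t + k := by exact_mod_cast hk
    have h7 : (0 : ℝ) ≤ k := Nat.cast_nonneg k
    rw [h3]
    norm_num at h5
    nlinarith
  · have h1 : 2 * (s : ℝ) + 1 ≤ t := by exact_mod_cast h
    have h2 : (0 : ℝ) ≤ 1024 ^ s * (1 / 16) ^ t := by positivity
    linarith

noncomputable def lam (g : Finset X → ℝ) (T : Finset X) (x : X) : ℝ :=
  ∑ S ∈ T.powerset, if x ∈ S then g S else 0

noncomputable def YY (g : Finset X → ℝ) (a : X → ℕ) : ℝ :=
  ∑ S ∈ (univ : Finset (Finset X)).erase ∅, g S * ∏ x ∈ S, (1024 * (1 / 16 : ℝ) ^ a x)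

omit [Fintype X] in
lemma lam_nonneg {g : Finset X → ℝ} (hg : ∀ S, 0 ≤ g S) (T : Finset X) (x : X) :
    0 ≤ lam g T x :=
  sum_nonneg (fun S _ => by split_ifs; exacts [hg S, le_rfl])

omit [Fintype X] in
lemma lam_supp (g : Finset X → ℝ) (T : Finset X) (x : X) (h : 0 < lam g T x) : x ∈ T := by
  by_contra hx
  have : lam g T x = 0 := sum_eq_zero (fun S hS => if_neg (fun h => hx (mem_powerset.1 hS h)))
  exact absurd h (by rw [this]; exact lt_irrefl _)

lemma sum_lam (g : Finset X → ℝ) (T : Finset X) (f : X → ℝ) :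
    ∑ x, lam g T x * f x = ∑ S ∈ T.powerset, g S * ∑ x ∈ S, f x := by
  unfold lam
  simp only [sum_mul]
  rw [sum_comm]
  apply sum_congr rfl
  intro S _
  simp only [ite_mul, zero_mul]
  rw [sum_ite_mem, univ_inter, mul_sum]

lemma good_YY {g : Finset X → ℝ} (hg : ∀ S, 0 ≤ g S) (hg0 : g ∅ ≤ 1 / 2) {T : Finset X}
    (hT : 1 ≤ ∑ S ∈ T.powerset, g S) {a : X → ℕ}
    (h : ∑ x, lam g T x * a x ≤ 2 * ∑ x, lam g T x) : 2 ≤ YY g a := by
  have h1 := sum_lam g T (fun x => (a x : ℝ))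
  have h2 := sum_lam g T (fun _ => 1)
  simp only [mul_one, sum_const, nsmul_eq_mul] at h2
  rw [h1, h2] at h
  have he : ∅ ∈ T.powerset := empty_mem_powerset T
  rw [← add_sum_erase _ _ he] at h hT
  rw [← add_sum_erase _ _ he] at h
  simp only [sum_empty, mul_zero, card_empty, Nat.cast_zero, zero_add] at h
  calc (2 : ℝ) ≤ ∑ S ∈ T.powerset.erase ∅, g S * (4 * (1 + 2 * (S.card : ℝ) - ∑ x ∈ S, (a x : ℝ))) := by
        have : ∑ S ∈ T.powerset.erase ∅, g S * (4 * (1 + 2 * (S.card : ℝ) - ∑ x ∈ S, (a x : ℝ))) =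
            4 * ∑ S ∈ T.powerset.erase ∅, g S + 4 * (2 * ∑ S ∈ T.powerset.erase ∅, g S * S.card)
              - 4 * ∑ S ∈ T.powerset.erase ∅, g S * ∑ x ∈ S, (a x : ℝ) := by
          simp only [mul_sum, ← sum_add_distrib, ← sum_sub_distrib]
          apply sum_congr rfl
          intro S _
          simp only [← mul_sum]
          ring
        rw [this]
        linarith
    _ ≤ ∑ S ∈ T.powerset.erase ∅, g S * ∏ x ∈ S, (1024 * (1 / 16 : ℝ) ^ a x) := by
        apply sum_le_sum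
        intro S hS
        apply mul_le_mul_of_nonneg_left _ (hg S)
        rw [prod_mul_distrib, prod_const, prod_pow_eq_pow_sum, ← Nat.cast_sum]
        exact pow_ge _ _ (card_pos.2 (nonempty_iff_ne_empty.2 (mem_erase.1 hS).1))
    _ ≤ YY g a := by
        apply sum_le_sum_of_subset_of_nonneg (erase_subset_erase _ (subset_univ _))
        intro S _ _
        exact mul_nonneg (hg S) (by positivity)

lemma exp_YY {g : Finset X → ℝ} (hg : ∀ S, 0 ≤ g S) {p : ℝ} {J : ℕ}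
    (hp : 3072 * (1 / 8 : ℝ) ^ J ≤ p) :
    ∑ a ∈ Om X J, (∏ x, piL J (a x)) * YY g a ≤ ∑ S : Finset X, g S * p ^ S.card := by
  unfold YY
  simp only [mul_sum]
  rw [sum_comm]
  have hp0 : 0 ≤ p := le_trans (by positivity) hp
  refine le_trans (sum_le_sum (fun S _ => ?_))
    (sum_le_sum_of_subset_of_nonneg (erase_subset ∅ univ)
      (fun S _ _ => mul_nonneg (hg S) (by positivity)))
  have h1 : ∀ a : X → ℕ, (∏ x, piL J (a x)) * (g S * ∏ x ∈ S, (1024 * (1 / 16 : ℝ) ^ a x)) =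
      g S * ∏ x, (piL J (a x) * if x ∈ S then 1024 * (1 / 16 : ℝ) ^ a x else 1) := by
    intro a
    rw [prod_mul_distrib (s := univ), prod_ite_mem, univ_inter]
    ring
  simp only [h1]
  rw [← mul_sum]
  apply mul_le_mul_of_nonneg_left _ (hg S)
  unfold Om
  rw [← prod_univ_sum (fun _ : X => range (J + 1))
    (fun x i => piL J i * if x ∈ S then 1024 * (1 / 16 : ℝ) ^ i else 1)]
  have h2 : p ^ S.card = ∏ x, if x ∈ S then p else 1 := by
    rw [prod_ite_mem, univ_inter, prod_const]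
  rw [h2]
  apply prod_le_prod
  · intro x _
    apply sum_nonneg
    intro i _
    apply mul_nonneg (piL_nonneg J i)
    split_ifs <;> positivity
  · intro x _
    split_ifs
    · have := piL_moment J
      have h3 : ∑ i ∈ range (J + 1), piL J i * (1024 * (1 / 16 : ℝ) ^ i) =
          1024 * ∑ i ∈ range (J + 1), piL J i * (1 / 16 : ℝ) ^ i := by
        rw [mul_sum]; apply sum_congr rfl; intros; ring
      rw [h3]; linarith
    · simp [piL_sum]

theorem small_of_frac {F : Finset (Finset X)} {p : ℝ} (h : IsFracSmall F p) {J : ℕ}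
    (hp : 3072 * (1 / 8 : ℝ) ^ J ≤ p) : IsSmall F ((1 / 8) ^ J / 200) := by
  classical
  obtain ⟨g, hg, hcov, hw⟩ := h
  have hg0 : ∀ S, 0 ≤ g S := fun S => (hg S).1
  have hp0 : 0 ≤ p := le_trans (by positivity) hp
  by_contra hF
  have hbad := bad_le (lam_nonneg hg0) (lam_supp g) (J := J) (π := piL J) (by positivity)
    (piL_nonneg J) (piL_sum J) (fun i hi => by unfold piL; rw [if_pos hi]) hF
  have hge : g ∅ ≤ 1 / 2 := by
    have := single_le_sum (f := fun S : Finset X => g S * p ^ S.card)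
      (fun S _ => mul_nonneg (hg0 S) (by positivity)) (mem_univ ∅)
    simp only [card_empty, pow_zero, mul_one] at this
    linarith
  have hP0 : ∀ a : X → ℕ, 0 ≤ ∏ x, piL J (a x) := fun a => prod_nonneg (fun x _ => piL_nonneg _ _)
  have hY0 : ∀ a, 0 ≤ YY g a := fun a =>
    sum_nonneg (fun S _ => mul_nonneg (hg0 S) (by positivity))
  have hgood : ∑ a ∈ (Om X J).filter (fun a => ¬ ∀ T ∈ F, UU (lam g T) a J ≠ ∅),
      (∏ x, piL J (a x)) * 2 ≤ 1 / 2 := by
    calc _ ≤ ∑ a ∈ (Om X J).filter (fun a => ¬ ∀ T ∈ F, UU (lam g T) a J ≠ ∅),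
          (∏ x, piL J (a x)) * YY g a := by
          apply sum_le_sum
          intro a ha
          rw [mem_filter] at ha
          obtain ⟨ha1, ha2⟩ := ha
          push Not at ha2
          obtain ⟨T, hT, hU⟩ := ha2
          exact mul_le_mul_of_nonneg_left (good_YY hg0 hge (hcov T hT)
            (avg_le (lam_nonneg hg0 T) hU (mem_Om.1 ha1))) (hP0 a)
      _ ≤ ∑ a ∈ Om X J, (∏ x, piL J (a x)) * YY g a :=
          sum_le_sum_of_subset_of_nonneg (filter_subset _ _)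
            (fun a _ _ => mul_nonneg (hP0 a) (hY0 a))
      _ ≤ _ := (exp_YY hg0 hp).trans hw
  rw [← sum_mul] at hgood
  have htot := sum_filter_add_sum_filter_not (Om X J) (fun a => ∀ T ∈ F, UU (lam g T) a J ≠ ∅)
    (fun a => ∏ x, piL J (a x))
  rw [total_prob (piL_sum J)] at htot
  linarith

omit [Fintype X] [DecidableEq X] in
lemma IsSmall.mono {F : Finset (Finset X)} {p p' : ℝ} (h : IsSmall F p) (h0 : 0 ≤ p')
    (h1 : p' ≤ p) : IsSmall F p' := by
  obtain ⟨G, hG, hc⟩ := h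
  exact ⟨G, hG, (sum_le_sum (fun S _ => pow_le_pow_left₀ h0 h1 _)).trans hc⟩

omit [Fintype X] [DecidableEq X] in
lemma isSmall_zero {F : Finset (Finset X)} (hF : ∅ ∉ F) : IsSmall F 0 := by
  refine ⟨F, fun H hH => ⟨H, hH, subset_rfl⟩, ?_⟩
  rw [sum_eq_zero]
  · norm_num
  · intro S hS
    apply zero_pow
    rw [Ne, card_eq_zero]
    rintro rfl
    exact hF hS

theorem small_div {F : Finset (Finset X)} (hF : ∅ ∉ F) {p : ℝ} (h0 : 0 ≤ p) (h1 : p ≤ 1)
    (h : IsFracSmall F p) : IsSmall F (p / 5000000) := by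
  rcases h0.eq_or_lt with rfl | hp
  · simpa using isSmall_zero hF
  obtain ⟨n, hn1, hn2⟩ := exists_nat_pow_near_of_lt_one (x := p / 3072) (y := 1 / 8)
    (by positivity) (by linarith) (by norm_num) (by norm_num)
  have h2 := small_of_frac h (J := n + 1) (by linarith)
  refine h2.mono (by positivity) ?_
  rw [pow_succ]
  linarith

theorem qFrac_le {F : Finset (Finset X)} (hF : ∅ ∉ F) : qFrac F ≤ 5000000 * qInt F := by
  have hb : BddAbove {p : ℝ | 0 ≤ p ∧ p ≤ 1 ∧ IsSmall F p} := ⟨1, fun p hp => hp.2.1⟩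
  have h0 : 0 ≤ qInt F := le_csSup hb ⟨le_rfl, zero_le_one, isSmall_zero hF⟩
  apply Real.sSup_le _ (by positivity)
  rintro p ⟨h1, h2, h3⟩
  have : p / 5000000 ≤ qInt F :=
    le_csSup hb ⟨by positivity, by linarith, small_div hF h1 h2 h3⟩
  linarith

end Vale.Agent.P034
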