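import Mathlib

/-! The multi-level threshold process. -/

namespace Vale.Agent.P034

open Finset

variable {X : Type} [Fintype X] [DecidableEq X]

/-- candidate thresholds -/
noncomputable def vals (l : X → ℝ) : Finset ℝ := insert 0 (univ.image l)

def ok (l : X → ℝ) (B : Finset X) (d e : ℝ) : Prop :=
  ∑ x ∈ B, min (l x) e ≤ d * ∑ x, min (l x) e

open Classical in
noncomputable def thr (l : X → ℝ) (B : Finset X) (d e : ℝ) : ℝ :=
  (insert 0 ((vals l).filter (fun t => t ≤ e ∧ ok l B d t))).max' (insert_nonempty _ _)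

noncomputable def AA (l : X → ℝ) (e : ℝ) : Finset X := univ.filter (fun x => e < l x)

noncomputable def st (l : X → ℝ) (a : X → ℕ) : ℕ → ℝ × Finset X
  | 0 => ((vals l).max' (insert_nonempty _ _), ∅)
  | i + 1 =>
    (thr l (univ.filter (fun x => i < a x) ∪ (st l a i).2) ((1 / 2) ^ i) (st l a i).1,
      AA l (thr l (univ.filter (fun x => i < a x) ∪ (st l a i).2) ((1 / 2) ^ i) (st l a i).1) ∩
        (univ.filter (fun x => i < a x) ∪ (st l a i).2))

noncomputable def eps (l : X → ℝ) (a : X → ℕ) (i : ℕ) : ℝ := (st l a i).1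
noncomputable def UU (l : X → ℝ) (a : X → ℕ) (i : ℕ) : Finset X := (st l a i).2
noncomputable def BB (l : X → ℝ) (a : X → ℕ) (i : ℕ) : Finset X :=
  univ.filter (fun x => i < a x) ∪ UU l a i

omit [DecidableEq X] in
lemma zero_mem_vals (l : X → ℝ) : (0 : ℝ) ∈ vals l := mem_insert_self _ _

omit [DecidableEq X] in
lemma mem_vals (l : X → ℝ) (x : X) : l x ∈ vals l :=
  mem_insert_of_mem (mem_image_of_mem _ (mem_univ x))

omit [DecidableEq X] in
lemma vals_nonneg {l : X → ℝ} (hl : ∀ x, 0 ≤ l x) {t : ℝ} (ht : t ∈ vals l) : 0 ≤ t := by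
  rcases mem_insert.1 ht with rfl | h
  · exact le_rfl
  · obtain ⟨x, -, rfl⟩ := mem_image.1 h
    exact hl x

omit [DecidableEq X] in
lemma ok_zero {l : X → ℝ} (hl : ∀ x, 0 ≤ l x) (B : Finset X) (d : ℝ) : ok l B d 0 := by
  unfold ok
  have : ∀ x, min (l x) 0 = 0 := fun x => min_eq_right (hl x)
  simp [this]

omit [DecidableEq X] in
lemma le_thr {l : X → ℝ} {B : Finset X} {d e t : ℝ} (h1 : t ∈ vals l) (h2 : t ≤ e)
    (h3 : ok l B d t) : t ≤ thr l B d e := by
  classical
  unfold thr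
  apply le_max'
  exact mem_insert_of_mem (mem_filter.2 ⟨h1, h2, h3⟩)

omit [DecidableEq X] in
lemma thr_spec {l : X → ℝ} (hl : ∀ x, 0 ≤ l x) (B : Finset X) (d : ℝ) {e : ℝ} (he : 0 ≤ e) :
    thr l B d e ∈ vals l ∧ thr l B d e ≤ e ∧ ok l B d (thr l B d e) := by
  classical
  have h : thr l B d e ∈ insert 0 ((vals l).filter (fun t => t ≤ e ∧ ok l B d t)) := by
    unfold thr
    convert max'_mem _ _
  rcases mem_insert.1 h with h | h
  · rw [h]; exact ⟨zero_mem_vals l, he, ok_zero hl B d⟩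
  · exact ⟨(mem_filter.1 h).1, (mem_filter.1 h).2⟩

lemma eps_succ (l : X → ℝ) (a : X → ℕ) (i : ℕ) :
    eps l a (i + 1) = thr l (BB l a i) ((1 / 2) ^ i) (eps l a i) := rfl

lemma UU_succ (l : X → ℝ) (a : X → ℕ) (i : ℕ) :
    UU l a (i + 1) = AA l (eps l a (i + 1)) ∩ BB l a i := rfl

lemma UU_zero (l : X → ℝ) (a : X → ℕ) : UU l a 0 = ∅ := rfl

lemma eps_zero (l : X → ℝ) (a : X → ℕ) : eps l a 0 = (vals l).max' (insert_nonempty _ _) := rfl

lemma eps_mem {l : X → ℝ} (hl : ∀ x, 0 ≤ l x) (a : X → ℕ) (i : ℕ) : eps l a i ∈ vals l := by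
  induction i with
  | zero => exact max'_mem _ (insert_nonempty _ _)
  | succ i ih => exact (thr_spec hl _ _ (vals_nonneg hl ih)).1

lemma eps_nonneg {l : X → ℝ} (hl : ∀ x, 0 ≤ l x) (a : X → ℕ) (i : ℕ) : 0 ≤ eps l a i :=
  vals_nonneg hl (eps_mem hl a i)

lemma eps_succ_le {l : X → ℝ} (hl : ∀ x, 0 ≤ l x) (a : X → ℕ) (i : ℕ) :
    eps l a (i + 1) ≤ eps l a i := (thr_spec hl _ _ (eps_nonneg hl a i)).2.1

lemma ok_eps {l : X → ℝ} (hl : ∀ x, 0 ≤ l x) (a : X → ℕ) (i : ℕ) :
    ok l (BB l a i) ((1 / 2) ^ i) (eps l a (i + 1)) := (thr_spec hl _ _ (eps_nonneg hl a i)).2.2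

omit [DecidableEq X] in
lemma mem_AA {l : X → ℝ} {e : ℝ} {x : X} : x ∈ AA l e ↔ e < l x := by simp [AA]

lemma mem_BB {l : X → ℝ} {a : X → ℕ} {i : ℕ} {x : X} :
    x ∈ BB l a i ↔ i < a x ∨ x ∈ UU l a i := by simp [BB]

lemma UU_sub_AA (l : X → ℝ) (a : X → ℕ) (i : ℕ) : UU l a i ⊆ AA l (eps l a i) := by
  cases i with
  | zero => simp [UU_zero]
  | succ i => rw [UU_succ]; exact inter_subset_left

lemma UU_sub_succ {l : X → ℝ} (hl : ∀ x, 0 ≤ l x) (a : X → ℕ) (i : ℕ) :
    UU l a i ⊆ UU l a (i + 1) := by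
  intro x hx
  rw [UU_succ, mem_inter, mem_AA, mem_BB]
  exact ⟨(eps_succ_le hl a i).trans_lt (mem_AA.1 (UU_sub_AA l a i hx)), Or.inr hx⟩

lemma UU_mono {l : X → ℝ} (hl : ∀ x, 0 ≤ l x) (a : X → ℕ) {i j : ℕ} (h : i ≤ j) :
    UU l a i ⊆ UU l a j :=
  monotone_nat_of_le_succ (f := UU l a) (fun i => UU_sub_succ hl a i) h

lemma AA_eps_zero (l : X → ℝ) (a : X → ℕ) : AA l (eps l a 0) = ∅ := by
  ext x
  simp only [mem_AA, notMem_empty, iff_false, not_lt, eps_zero]
  exact le_max' _ _ (mem_vals l x)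

lemma card_step {l : X → ℝ} (hl : ∀ x, 0 ≤ l x) (a : X → ℕ) (i : ℕ)
    (h : (AA l (eps l a i)).card ≤ 2 ^ i * (UU l a i).card) :
    (AA l (eps l a (i + 1))).card ≤ 2 ^ i * (UU l a (i + 1)).card := by
  classical
  rcases (eps_succ_le hl a i).eq_or_lt with heq | hlt
  · rw [heq]
    exact h.trans (Nat.mul_le_mul_left _ (card_le_card (UU_sub_succ hl a i)))
  · set e := eps l a (i + 1) with he
    set B := BB l a i with hB
    have hne : ((vals l).filter (fun t => e < t)).Nonempty :=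
      ⟨_, mem_filter.2 ⟨eps_mem hl a i, hlt⟩⟩
    set e' := ((vals l).filter (fun t => e < t)).min' hne with he'
    have hm := min'_mem _ hne
    rw [← he', mem_filter] at hm
    have hle : ∀ t ∈ vals l, e < t → e' ≤ t := fun t h1 h2 => min'_le _ _ (mem_filter.2 ⟨h1, h2⟩)
    have hno : ¬ ok l B ((1 / 2) ^ i) e' := by
      intro hok
      have := le_thr hm.1 (hle _ (eps_mem hl a i) hlt) hok
      rw [← eps_succ] at this
      exact absurd hm.2 (not_lt.2 this)
    have hok := ok_eps hl a i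
    rw [← he, ← hB] at hok
    have key : ∀ x, min (l x) e' = min (l x) e + (e' - e) * (if e < l x then 1 else 0) := by
      intro x
      by_cases hx : e < l x
      · rw [if_pos hx, min_eq_right (hle _ (mem_vals l x) hx), min_eq_right hx.le]; ring
      · rw [if_neg hx, min_eq_left (not_lt.1 hx), min_eq_left ((not_lt.1 hx).trans hm.2.le)]; ring
    unfold ok at hno hok
    simp only [key, sum_add_distrib, ← mul_sum, sum_boole] at hno
    have h1 : B.filter (fun x => e < l x) = UU l a (i + 1) := by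
      ext x; rw [UU_succ, mem_inter, mem_AA, mem_filter, ← he, ← hB, and_comm]
    have h2 : univ.filter (fun x => e < l x) = AA l e := rfl
    rw [h1, h2] at hno
    have hpos : 0 < e' - e := sub_pos.2 hm.2
    have h3 : (1 / 2 : ℝ) ^ i * (AA l e).card < (UU l a (i + 1)).card := by
      by_contra hc
      apply hno
      have := mul_le_mul_of_nonneg_left (not_lt.1 hc) hpos.le
      nlinarith
    have h4 : ((AA l e).card : ℝ) ≤ 2 ^ i * (UU l a (i + 1)).card := by
      have h5 : (2 : ℝ) ^ i * (1 / 2) ^ i = 1 := by rw [← mul_pow]; norm_num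
      have h6 : (0 : ℝ) < 2 ^ i := by positivity
      calc ((AA l e).card : ℝ) = 2 ^ i * ((1 / 2) ^ i * (AA l e).card) := by
            rw [← mul_assoc, h5, one_mul]
        _ ≤ _ := mul_le_mul_of_nonneg_left h3.le h6.le
    exact_mod_cast h4

lemma card_AA {l : X → ℝ} (hl : ∀ x, 0 ≤ l x) (a : X → ℕ) (i : ℕ) :
    (AA l (eps l a i)).card ≤ 2 ^ i * (UU l a i).card := by
  induction i with
  | zero => simp [AA_eps_zero]
  | succ i ih =>
    refine (card_step hl a i ih).trans (Nat.mul_le_mul_right _ ?_)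
    exact Nat.pow_le_pow_right (by norm_num) (Nat.le_succ i)

lemma card_AA_succ {l : X → ℝ} (hl : ∀ x, 0 ≤ l x) (a : X → ℕ) (i : ℕ) :
    (AA l (eps l a (i + 1))).card ≤ 2 ^ i * (UU l a (i + 1)).card :=
  card_step hl a i (card_AA hl a i)

/-- modified labels -/
noncomputable def md (l : X → ℝ) (a : X → ℕ) (J : ℕ) (x : X) : ℕ :=
  if x ∈ UU l a J then ((range J).filter (fun i => x ∉ UU l a (i + 1))).card else a x

lemma md_of_notMem {l : X → ℝ} {a : X → ℕ} {J : ℕ} {x : X} (h : x ∉ UU l a J) :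
    md l a J x = a x := if_neg h

lemma md_le_iff {l : X → ℝ} (hl : ∀ x, 0 ≤ l x) {a : X → ℕ} {J : ℕ} {x : X} (h : x ∈ UU l a J)
    (i : ℕ) : md l a J x ≤ i ↔ x ∈ UU l a (i + 1) := by
  unfold md
  rw [if_pos h]
  constructor
  · intro h1
    by_contra h2
    have hiJ : i + 1 ≤ J := by
      by_contra h3
      exact h2 (UU_mono hl a (by omega) h)
    have : range (i + 1) ⊆ (range J).filter (fun i => x ∉ UU l a (i + 1)) := by
      intro j hj
      rw [mem_range] at hj
      rw [mem_filter, mem_range]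
      exact ⟨by omega, fun h4 => h2 (UU_mono hl a (by omega) h4)⟩
    have := card_le_card this
    rw [card_range] at this
    omega
  · intro h1
    have : (range J).filter (fun i => x ∉ UU l a (i + 1)) ⊆ range i := by
      intro j hj
      rw [mem_filter] at hj
      rw [mem_range]
      by_contra h3
      exact hj.2 (UU_mono hl a (by omega) h1)
    simpa using card_le_card this

lemma md_lt {l : X → ℝ} (hl : ∀ x, 0 ≤ l x) {a : X → ℕ} {J : ℕ} {x : X} (h : x ∈ UU l a J) :
    md l a J x < J := by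
  cases J with
  | zero => simp [UU_zero] at h
  | succ J => exact Nat.lt_succ_of_le ((md_le_iff hl h J).2 h)

lemma lt_of_new {l : X → ℝ} {a : X → ℕ} {i : ℕ} {x : X} (h1 : x ∈ UU l a (i + 1))
    (h2 : x ∉ UU l a i) : i < a x := by
  rw [UU_succ, mem_inter, mem_BB] at h1
  exact h1.2.resolve_right h2

lemma mem_BB_iff {l : X → ℝ} (hl : ∀ x, 0 ≤ l x) {a : X → ℕ} {J i : ℕ} (hi : i < J) (x : X) :
    x ∈ BB l a i ↔ i < md l a J x ∨ x ∈ UU l a (i + 1) := by
  rw [mem_BB]
  by_cases hx : x ∈ UU l a J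
  · have h1 := md_le_iff hl hx i
    constructor
    · intro _
      by_cases h2 : md l a J x ≤ i
      · exact Or.inr (h1.1 h2)
      · exact Or.inl (not_le.1 h2)
    · intro _
      by_cases h2 : x ∈ UU l a i
      · exact Or.inr h2
      · left
        set j := md l a J x with hj
        have h3 : x ∈ UU l a (j + 1) := (md_le_iff hl hx j).1 le_rfl
        have h4 : x ∉ UU l a j := by
          intro h4
          cases hj' : j with
          | zero => rw [hj', UU_zero] at h4; simp at h4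
          | succ k =>
            rw [hj'] at h4
            have := (md_le_iff hl hx k).2 h4
            omega
        have h5 := lt_of_new h3 h4
        have h6 : i ≤ j := by
          by_contra h7
          exact h2 (UU_mono hl a (by omega) h3)
        omega
  · rw [md_of_notMem hx]
    have h1 : x ∉ UU l a i := fun h => hx (UU_mono hl a hi.le h)
    have h2 : x ∉ UU l a (i + 1) := fun h => hx (UU_mono hl a hi h)
    simp [h1, h2]

lemma md_le_of_mem_UU {l : X → ℝ} (hl : ∀ x, 0 ≤ l x) {a : X → ℕ} {J i : ℕ} (hi : i < J) {x : X}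
    (hx : x ∈ UU l a (i + 1)) : md l a J x ≤ i :=
  (md_le_iff hl (UU_mono hl a hi hx) i).2 hx

lemma md_le_of_mem_AA {l : X → ℝ} (hl : ∀ x, 0 ≤ l x) {a : X → ℕ} {J i : ℕ} (hi : i < J) {x : X}
    (hx : x ∈ AA l (eps l a (i + 1))) : md l a J x ≤ i := by
  by_cases hB : x ∈ BB l a i
  · exact md_le_of_mem_UU hl hi (by rw [UU_succ]; exact mem_inter.2 ⟨hx, hB⟩)
  · rw [mem_BB_iff hl hi] at hB
    push Not at hB
    exact hB.1

lemma UU_succ_eq {l : X → ℝ} (hl : ∀ x, 0 ≤ l x) {a : X → ℕ} {J i : ℕ} (hi : i < J) :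
    UU l a (i + 1) = (UU l a J).filter (fun x => md l a J x ≤ i) := by
  ext x
  rw [mem_filter]
  constructor
  · intro h
    exact ⟨UU_mono hl a hi h, md_le_of_mem_UU hl hi h⟩
  · rintro ⟨h1, h2⟩
    exact (md_le_iff hl h1 i).1 h2

/-- The comparison lemma. -/
lemma compare {l m : X → ℝ} (hl : ∀ x, 0 ≤ l x) (hm : ∀ x, 0 ≤ m x) {a b : X → ℕ} {J : ℕ}
    (hmd : md l a J = md m b J) (hc : ∀ i < J, (UU l a (i + 1)).card ≤ (UU m b (i + 1)).card) :
    ∀ i ≤ J, eps m b i ≤ eps m a i ∧ UU m a i ⊆ UU l a i := by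
  intro i
  induction i with
  | zero => intro _; exact ⟨le_rfl, by simp [UU_zero]⟩
  | succ i ih =>
    intro hi
    have hi' : i < J := hi
    obtain ⟨h1, h2⟩ := ih hi'.le
    have hB : BB m a i ⊆ BB l a i := union_subset_union_right h2
    set e := eps m b (i + 1) with he
    have he0 : 0 ≤ e := eps_nonneg hm b _
    set Y : Finset X := univ.filter (fun x => i < md l a J x) with hY
    have hBl : BB l a i = Y ∪ UU l a (i + 1) := by
      ext x; rw [mem_BB_iff hl hi', mem_union, hY]; simp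
    have hBm : BB m b i = Y ∪ UU m b (i + 1) := by
      ext x; rw [mem_BB_iff hm hi', mem_union, hY, hmd]; simp
    have hdm : Disjoint Y (UU m b (i + 1)) := by
      rw [disjoint_left]
      intro x hx1 hx2
      have := md_le_of_mem_UU hm hi' hx2
      rw [hY, hmd, mem_filter] at hx1
      omega
    have hok : ok m (BB m a i) ((1 / 2) ^ i) e := by
      have h3 := ok_eps hm b i
      unfold ok at h3 ⊢
      rw [← he] at h3
      refine le_trans ?_ h3
      have hnn : ∀ x, 0 ≤ min (m x) e := fun x => le_min (hm x) he0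
      calc ∑ x ∈ BB m a i, min (m x) e ≤ ∑ x ∈ BB l a i, min (m x) e :=
            sum_le_sum_of_subset_of_nonneg hB (fun x _ _ => hnn x)
        _ ≤ ∑ x ∈ Y, min (m x) e + ∑ x ∈ UU l a (i + 1), min (m x) e := by
            rw [hBl, ← sum_union_inter]
            have := sum_nonneg (s := Y ∩ UU l a (i + 1)) (fun x _ => hnn x)
            linarith
        _ ≤ ∑ x ∈ Y, min (m x) e + ∑ x ∈ UU m b (i + 1), min (m x) e := by
            refine add_le_add le_rfl ?_
            calc ∑ x ∈ UU l a (i + 1), min (m x) e ≤ ∑ x ∈ UU l a (i + 1), e :=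
                  sum_le_sum (fun x _ => min_le_right _ _)
              _ = (UU l a (i + 1)).card * e := by simp
              _ ≤ (UU m b (i + 1)).card * e :=
                  mul_le_mul_of_nonneg_right (by exact_mod_cast hc i hi') he0
              _ = ∑ x ∈ UU m b (i + 1), e := by simp
              _ = _ := sum_congr rfl (fun x hx =>
                  (min_eq_right (mem_AA.1 (UU_sub_AA m b (i + 1) hx)).le).symm)
        _ = ∑ x ∈ BB m b i, min (m x) e := by rw [hBm, sum_union hdm]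
    have h4 : e ≤ eps m a (i + 1) := by
      rw [eps_succ]
      exact le_thr (eps_mem hm b _) ((eps_succ_le hm b i).trans h1) hok
    refine ⟨h4, ?_⟩
    intro x hx
    rw [UU_succ, mem_inter] at hx
    have h5 : x ∈ AA m e := mem_AA.2 (h4.trans_lt (mem_AA.1 hx.1))
    have h6 := md_le_of_mem_AA hm hi' h5
    have h7 := hB hx.2
    rw [mem_BB_iff hl hi', hmd] at h7
    exact h7.resolve_left (not_lt.2 h6)

lemma tail_le {l : X → ℝ} (hl : ∀ x, 0 ≤ l x) {a : X → ℕ} {J : ℕ} (h : UU l a J = ∅) {i : ℕ}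
    (hi : i < J) : ∑ x ∈ univ.filter (fun x => i < a x), l x ≤ (1 / 2) ^ i * ∑ x, l x := by
  have h1 : UU l a (i + 1) = ∅ := subset_empty.1 (h ▸ UU_mono hl a hi)
  have h2 := card_AA_succ hl a i
  rw [h1] at h2
  simp only [card_empty, mul_zero, nonpos_iff_eq_zero, card_eq_zero] at h2
  have h3 : ∀ x, min (l x) (eps l a (i + 1)) = l x := by
    intro x
    apply min_eq_left
    by_contra hc
    have : x ∈ AA l (eps l a (i + 1)) := mem_AA.2 (not_le.1 hc)
    rw [h2] at this
    simp at this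
  have h4 := ok_eps hl a i
  unfold ok at h4
  simp only [h3] at h4
  exact le_trans (sum_le_sum_of_subset_of_nonneg subset_union_left (fun x _ _ => hl x)) h4

lemma avg_le {l : X → ℝ} (hl : ∀ x, 0 ≤ l x) {a : X → ℕ} {J : ℕ} (h : UU l a J = ∅)
    (ha : ∀ x, a x ≤ J) : ∑ x, l x * a x ≤ 2 * ∑ x, l x := by
  have h1 : ∀ x, l x * a x = ∑ i ∈ range J, if i < a x then l x else 0 := by
    intro x
    rw [← sum_filter]
    have : (range J).filter (fun i => i < a x) = range (a x) := by
      ext i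
      have := ha x
      simp only [mem_filter, mem_range]
      omega
    rw [this]; simp [mul_comm]
  simp only [h1]
  rw [sum_comm]
  have h0 : 0 ≤ ∑ x, l x := sum_nonneg (fun x _ => hl x)
  calc ∑ i ∈ range J, ∑ x, (if i < a x then l x else 0)
      ≤ ∑ i ∈ range J, (1 / 2) ^ i * ∑ x, l x := by
        apply sum_le_sum
        intro i hi
        rw [← sum_filter]
        exact tail_le hl h (mem_range.1 hi)
    _ = (∑ i ∈ range J, (1 / 2) ^ i) * ∑ x, l x := by rw [sum_mul]
    _ ≤ 2 * ∑ x, l x := by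
        gcongr
        exact sum_geometric_two_le J

lemma UU_pos {l : X → ℝ} (hl : ∀ x, 0 ≤ l x) {a : X → ℕ} {i : ℕ} {x : X} (hx : x ∈ UU l a i) :
    0 < l x :=
  (eps_nonneg hl a i).trans_lt (mem_AA.1 (UU_sub_AA l a i hx))

end Vale.Agent.P034
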